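import Vale.Agent.P063.Final

namespace Vale.Agent.Results.P063.Width

open Vale.Agent.P063

theorem result (r : ℕ) (hr : 2 ≤ r) (ε : ℝ) (hε0 : 0 < ε) (hε1 : ε < 1 / 2) :
    ∃ C : ℝ, ∀ n : ℕ, r ≤ n → ∀ P : Set (Edge n r → Bool),
      Invariant P → Increasing P → P.Nonempty → P ≠ Set.univ →
        width ε P ≤ C * Real.log n ^ (-((r : ℝ) / ((r : ℝ) - 1))) :=
  width_le r hr ε hε0 hε1

end Vale.Agent.Results.P063.Width
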